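import Vale.Agent.Helper29.P329Stay

/-!
Two-way clocks (problem P329), task T22: the automata theorem `CountPM` for two-way clocks
follows from the statement on the up letters.
-/

namespace Vale.Agent.Helper29.P329

open Vale.Agent.Helper10

/-- the statement on the up letters of a two-way clock: the number of up letters of type
`true` read at the class `y` is measurable -/
def UpStmt : Prop :=
  ∀ (α : Type) [Finite α] (m : ℕ) [NeZero m] (up dn tp : α → Bool) (y : ZMod m),
    Meas (fun w : List α =>
      ((cnt (dgPM m up dn) (fun a => up a = true ∧ tp a = true) y 0 w : ℕ) : ℤ))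

section cnts

variable {α : Type} {m : ℕ}

/-- reversing the clock -/
theorem cnt_neg (dg : α → ZMod m) (sp : α → Prop) [DecidablePred sp] (x : ZMod m) :
    ∀ (w : List α) (c : ZMod m),
      cnt dg sp x c w = cnt (fun a => - dg a) sp (-x) (-c) w := by
  intro w
  induction w with
  | nil => intro c; rfl
  | cons a w ih =>
    intro c
    show (if sp a ∧ c = x then 1 else 0) + cnt dg sp x (c + dg a) w
      = (if sp a ∧ -c = -x then 1 else 0) + cnt (fun a => - dg a) sp (-x) (-c + - dg a) w
    rw [ih (c + dg a), neg_add]
    by_cases h : sp a ∧ c = x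
    · have h' : sp a ∧ -c = -x := ⟨h.1, by rw [h.2]⟩
      rw [if_pos h, if_pos h']
    · have h' : ¬ (sp a ∧ -c = -x) := fun e => h ⟨e.1, neg_inj.1 e.2⟩
      rw [if_neg h, if_neg h']

/-- the count depends on the letter property only up to equivalence -/
theorem cnt_congr_sp (dg : α → ZMod m) (sp sp' : α → Prop) [DecidablePred sp]
    [DecidablePred sp'] (hsp : ∀ a, sp a ↔ sp' a) (x : ZMod m) :
    ∀ (w : List α) (c : ZMod m), cnt dg sp x c w = cnt dg sp' x c w := by
  intro w
  induction w with
  | nil => intro c; rfl
  | cons a w ih =>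
    intro c
    show (if sp a ∧ c = x then 1 else 0) + cnt dg sp x (c + dg a) w
      = (if sp' a ∧ c = x then 1 else 0) + cnt dg sp' x (c + dg a) w
    rw [ih (c + dg a)]
    by_cases h : sp a ∧ c = x
    · have h' : sp' a ∧ c = x := ⟨(hsp a).1 h.1, h.2⟩
      rw [if_pos h, if_pos h']
    · have h' : ¬ (sp' a ∧ c = x) := fun e => h ⟨(hsp a).2 e.1, e.2⟩
      rw [if_neg h, if_neg h']

/-- the reversed clock of a two-way clock is the two-way clock with the roles exchanged -/
theorem dgPM_neg (up dn : α → Bool) :
    (fun a => - dgPM m up dn a) = dgPM m (fun a => !up a && dn a) up := by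
  funext a
  unfold dgPM
  by_cases hu : up a = true
  · simp [hu]
  · have hu' : up a = false := by simpa using hu
    by_cases hd : dn a = true
    · simp [hu', hd]
    · have hd' : dn a = false := by simpa using hd
      simp [hu', hd']

end cnts

/-- **T22.** The automata theorem for two-way clocks, from the statement on the up letters. -/
theorem count_pm_of (h : UpStmt) : CountPM := by
  intro α _ m _ dg hdg sp _ e _ x r
  classical
  let up : α → Bool := fun a => decide (dg a = 1)
  let dn : α → Bool := fun a => decide (dg a = -1)
  have hdg' : dg = dgPM m up dn := by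
    funext a
    show dg a = if up a = true then 1 else if dn a = true then -1 else 0
    have eu : (up a = true) ↔ dg a = 1 := by simp [up]
    have ed : (dn a = true) ↔ dg a = -1 := by simp [dn]
    by_cases h1 : dg a = 1
    · rw [if_pos (eu.2 h1)]
      exact h1
    · rw [if_neg (fun e => h1 (eu.1 e))]
      by_cases h2 : dg a = -1
      · rw [if_pos (ed.2 h2)]
        exact h2
      · rw [if_neg (fun e => h2 (ed.1 e))]
        rcases hdg a with h0 | h0 | h0
        · exact h0
        · exact absurd h0 h1
        · exact absurd h0 h2
  -- the up letters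
  have hU : Meas (fun w : List α =>
      ((cnt (dgPM m up dn) (fun a => up a = true ∧ sp a) x 0 w : ℕ) : ℤ)) := by
    refine (h α m up dn (fun a => decide (sp a)) x).congr (fun w => ?_)
    rw [cnt_congr_sp (dgPM m up dn) (fun a => up a = true ∧ decide (sp a) = true)
      (fun a => up a = true ∧ sp a) (fun a => by simp) x w 0]
  -- the down letters
  have hD : Meas (fun w : List α =>
      ((cnt (dgPM m up dn) (fun a => dn a = true ∧ (up a = false ∧ sp a)) x 0 w : ℕ) : ℤ)) := by
    refine (h α m (fun a => !up a && dn a) up (fun a => decide (sp a)) (-x)).congr (fun w => ?_)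
    rw [cnt_neg (dgPM m up dn) (fun a => dn a = true ∧ (up a = false ∧ sp a)) x w 0, dgPM_neg,
      neg_zero]
    rw [cnt_congr_sp (dgPM m (fun a => !up a && dn a) up)
      (fun a => (!up a && dn a) = true ∧ decide (sp a) = true)
      (fun a => dn a = true ∧ (up a = false ∧ sp a)) (fun a => by simp; tauto) (-x) w 0]
  -- the stay letters
  have hS : Meas (fun w : List α =>
      ((cnt (dgPM m up dn) (fun a => dn a = false ∧ (up a = false ∧ sp a)) x 0 w : ℕ) : ℤ)) := by
    refine (stay_meas up dn sp x).congr (fun w => ?_)
    rw [cnt_congr_sp (dgPM m up dn) (fun a => (up a = false ∧ dn a = false) ∧ sp a)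
      (fun a => dn a = false ∧ (up a = false ∧ sp a)) (fun a => by tauto) x w 0]
  have hT := ((hU.add hD).add hS) e r
  rw [hdg']
  refine hT.congr (fun w => ?_)
  rw [cnt_split (dgPM m up dn) up sp x w 0,
    cnt_split (dgPM m up dn) dn (fun a => up a = false ∧ sp a) x w 0]
  push_cast
  rw [add_assoc]

end Vale.Agent.Helper29.P329
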