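import Vale.Agent.Helper10.PMDefs

/-!
Two-way clocks (problem P329), task T8: the second identity.  The arrivals at the class `0`
from below at which the entry at `y` is `some true` split into those where the memory spells
a full pattern and those where the entry at `0` is empty.
-/

namespace Vale.Agent.Helper29.P329

open Vale.Agent.Helper10

variable {α : Type} {m : ℕ}

/-- a class `c` with `c + 1 = 0` has the largest value -/
theorem val_add_one_of_eq_zero [NeZero m] (c : ZMod m) (h : c + 1 = 0) : c.val + 1 = m := by
  have h1 : ((c.val + 1 : ℕ) : ZMod m) = 0 := by
    rw [Nat.cast_add, ZMod.natCast_val, ZMod.cast_id', id, Nat.cast_one]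
    exact h
  have h2 : m ∣ c.val + 1 := (ZMod.natCast_eq_zero_iff _ _).1 h1
  have h3 : c.val < m := ZMod.val_lt c
  have h4 := Nat.le_of_dvd (Nat.succ_pos _) h2
  omega

/-- at an arrival from below, if the entry at `0` is filled then the memory is total -/
theorem lam1_total [NeZero m] (tp : α → Bool) (q : ZMod m × (ZMod m → Option Bool)) (a : α)
    (h : InvK q) (h1 : q.1 + 1 = 0) (h0 : lam1 tp q a 0 ≠ none) (j : ZMod m) :
    lam1 tp q a j ≠ none := by
  unfold lam1 at h0 ⊢
  by_cases hj : j = q.1
  · rw [hj, Function.update_self]
    exact Option.some_ne_none _
  · rw [Function.update_of_ne hj]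
    have hval := val_add_one_of_eq_zero q.1 h1
    have hjlt : j.val < q.1.val := by
      have h3 : j.val < m := ZMod.val_lt j
      have h4 : j.val ≠ q.1.val := fun e => hj (ZMod.val_injective m e)
      omega
    have hq0 : q.2 0 ≠ none := by
      by_cases hz : (0 : ZMod m) = q.1
      · exfalso
        rw [← hz] at hjlt
        rw [ZMod.val_zero] at hjlt
        omega
      · rw [Function.update_of_ne hz] at h0
        exact h0
    exact h.2 hq0 j hjlt

/-- the step identity behind `id_two` -/
theorem step_two [NeZero m] (up tp : α → Bool) (y : ZMod m)
    (q : ZMod m × (ZMod m → Option Bool)) (a : α) (h : InvK q) :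
    (if evArrY up tp y q a = true then 1 else 0)
      = ∑ s : ZMod m → Bool,
          (if s y = true then (if evPat up tp s q a = true then 1 else 0) else 0)
        + (if evNW up tp y q a = true then 1 else 0) := by
  by_cases hA : up a = true ∧ q.1 + 1 = 0
  · obtain ⟨hu, h1⟩ := hA
    have eY : evArrY up tp y q a = decide (lam1 tp q a y = some true) := by
      simp [evArrY, hu, h1]
    have eN : evNW up tp y q a
        = (decide (lam1 tp q a y = some true) && decide (lam1 tp q a 0 = none)) := by
      simp [evNW, hu, h1]
    have eP : ∀ s : ZMod m → Bool,
        evPat up tp s q a = decide (lam1 tp q a = fun j => some (s j)) := by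
      intro s
      simp [evPat, hu, h1]
    rw [eY, eN]
    simp only [eP]
    by_cases hy : lam1 tp q a y = some true
    · by_cases h0 : lam1 tp q a 0 = none
      · have hsum : ∑ s : ZMod m → Bool,
            (if s y = true then
              (if decide (lam1 tp q a = fun j => some (s j)) = true then 1 else 0) else 0)
            = 0 := by
          refine Finset.sum_eq_zero fun s _ => ?_
          have hne : ¬ (lam1 tp q a = fun j => some (s j)) := by
            intro e
            rw [e] at h0
            exact Option.some_ne_none _ h0
          simp [hne]
        rw [hsum]
        simp [hy, h0]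
      · have htot := lam1_total tp q a h h1 h0
        set s0 : ZMod m → Bool := fun j => (lam1 tp q a j).getD false with hs0
        have hlam : lam1 tp q a = fun j => some (s0 j) := by
          funext j
          have := htot j
          rw [hs0]
          cases hj : lam1 tp q a j with
          | none => exact absurd hj this
          | some b =>
            show some b = some ((lam1 tp q a j).getD false)
            rw [hj]
            rfl
        have hs0y : s0 y = true := by
          rw [hs0]
          simp only
          rw [hy]
          rfl
        have hsum : ∑ s : ZMod m → Bool,
            (if s y = true then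
              (if decide (lam1 tp q a = fun j => some (s j)) = true then 1 else 0) else 0)
            = 1 := by
          rw [Finset.sum_eq_single s0]
          · simp [hs0y, ← hlam]
          · intro s _ hs
            have hne : ¬ (lam1 tp q a = fun j => some (s j)) := by
              intro e
              apply hs
              funext j
              have := congrFun (hlam.symm.trans e) j
              exact (Option.some.inj this).symm
            simp [hne]
          · intro hnm
            exact absurd (Finset.mem_univ s0) hnm
        rw [hsum]
        simp [hy, h0]
    · have hsum : ∑ s : ZMod m → Bool,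
          (if s y = true then
            (if decide (lam1 tp q a = fun j => some (s j)) = true then 1 else 0) else 0)
          = 0 := by
        refine Finset.sum_eq_zero fun s _ => ?_
        by_cases hsy : s y = true
        · have hne : ¬ (lam1 tp q a = fun j => some (s j)) := by
            intro e
            apply hy
            rw [e]
            show some (s y) = some true
            rw [hsy]
          simp [hne]
        · simp [hsy]
      rw [hsum]
      simp [hy]
  · have eY : evArrY up tp y q a = false := by
      unfold evArrY
      by_cases hu : up a = true
      · have h1 : ¬ (q.1 + 1 = 0) := fun e => hA ⟨hu, e⟩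
        simp [hu, h1]
      · simp [hu]
    have eN : evNW up tp y q a = false := by
      unfold evNW
      by_cases hu : up a = true
      · have h1 : ¬ (q.1 + 1 = 0) := fun e => hA ⟨hu, e⟩
        simp [hu, h1]
      · simp [hu]
    have eP : ∀ s : ZMod m → Bool, evPat up tp s q a = false := by
      intro s
      unfold evPat
      by_cases hu : up a = true
      · have h1 : ¬ (q.1 + 1 = 0) := fun e => hA ⟨hu, e⟩
        simp [hu, h1]
      · simp [hu]
    simp [eY, eN, eP]

/-- **T8**, with the invariance of `InvK` under the steps as a hypothesis. -/
theorem id_two_of [NeZero m] (up dn tp : α → Bool) (y : ZMod m)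
    (hstep : ∀ (q : ZMod m × (ZMod m → Option Bool)) (a : α),
      InvK q → InvK (mStep up dn tp q a)) :
    ∀ (w : List α) (q : ZMod m × (ZMod m → Option Bool)), InvK q →
      bcount (mStep up dn tp) (evArrY up tp y) q w
        = ∑ s : ZMod m → Bool,
            (if s y = true then bcount (mStep up dn tp) (evPat up tp s) q w else 0)
          + bcount (mStep up dn tp) (evNW up tp y) q w := by
  intro w
  induction w with
  | nil =>
    intro q _
    simp [bcount]
  | cons a w ih =>
    intro q hq
    have ih' := ih (mStep up dn tp q a) (hstep q a hq)
    have hs := step_two up tp y q a hq
    have e1 : bcount (mStep up dn tp) (evArrY up tp y) q (a :: w)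
        = (if evArrY up tp y q a = true then 1 else 0)
          + bcount (mStep up dn tp) (evArrY up tp y) (mStep up dn tp q a) w := rfl
    have e2 : bcount (mStep up dn tp) (evNW up tp y) q (a :: w)
        = (if evNW up tp y q a = true then 1 else 0)
          + bcount (mStep up dn tp) (evNW up tp y) (mStep up dn tp q a) w := rfl
    have e3 : ∀ s : ZMod m → Bool,
        (if s y = true then bcount (mStep up dn tp) (evPat up tp s) q (a :: w) else 0)
        = (if s y = true then (if evPat up tp s q a = true then 1 else 0) else 0)
          + (if s y = true then
              bcount (mStep up dn tp) (evPat up tp s) (mStep up dn tp q a) w else 0) := by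
      intro s
      by_cases hsy : s y = true
      · rw [if_pos hsy, if_pos hsy, if_pos hsy]
        rfl
      · rw [if_neg hsy, if_neg hsy, if_neg hsy]
    rw [e1, e2, Finset.sum_congr rfl fun s _ => e3 s, Finset.sum_add_distrib, ih', hs]
    ring

end Vale.Agent.Helper29.P329
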