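import Vale.Agent.Helper10.PMDefs

/-!
Two-way clocks (problem P329), task T13: the pops of the master automaton at the class `y`
are the pops of the automaton with the single memory cell `y`.
-/

namespace Vale.Agent.Helper29.P329

open Vale.Agent.Helper10

variable {α : Type} {m : ℕ}

/-- the cell `y` of the master memory evolves like the single cell of `aStep` -/
theorem mUpd_apply (up dn tp : α → Bool) (y c : ZMod m) (a : α) (L : ZMod m → Option Bool) :
    mUpd up dn tp c a L y = aUpd up dn tp y c a (L y) := by
  unfold mUpd aUpd
  by_cases hu : up a = true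
  · rw [if_pos hu, if_pos hu]
    by_cases h0 : c + 1 = 0
    · rw [if_pos h0, if_pos h0]
    · rw [if_neg h0, if_neg h0]
      by_cases h1 : c + 1 = y
      · rw [if_pos h1, ← h1, Function.update_self]
      · rw [if_neg h1, Function.update_of_ne (Ne.symm h1)]
        by_cases h2 : c = y
        · rw [if_pos h2, ← h2, Function.update_self]
        · rw [if_neg h2, Function.update_of_ne (Ne.symm h2)]
  · rw [if_neg hu, if_neg hu]
    by_cases hd : dn a = true
    · rw [if_pos hd, if_pos hd]
      by_cases h0 : c - 1 = 0
      · rw [if_pos h0, if_pos h0]
      · rw [if_neg h0, if_neg h0]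
        by_cases h1 : c - 1 = y
        · rw [if_pos h1, ← h1, Function.update_self]
        · rw [if_neg h1, Function.update_of_ne (Ne.symm h1)]
    · rw [if_neg hd, if_neg hd]

/-- **T13.** The pops at `y` counted by the one-cell automaton and by the master automaton
agree. -/
theorem pop_proj (up dn tp : α → Bool) (y : ZMod m) :
    ∀ (w : List α) (q : ZMod m × (ZMod m → Option Bool)),
      bcount (aStep up dn tp y) (evPopA up dn y) (q.1, q.2 y) w
        = bcount (mStep up dn tp) (evPop up dn y) q w := by
  intro w
  induction w with
  | nil => intro q; rfl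
  | cons a w ih =>
    intro q
    have hstep : aStep up dn tp y (q.1, q.2 y) a
        = ((mStep up dn tp q a).1, (mStep up dn tp q a).2 y) := by
      show (clsStep up dn q.1 a, aUpd up dn tp y q.1 a (q.2 y))
        = (clsStep up dn q.1 a, mUpd up dn tp q.1 a q.2 y)
      rw [mUpd_apply]
    have hev : evPopA up dn y (q.1, q.2 y) a = evPop up dn y q a := rfl
    show (if evPopA up dn y (q.1, q.2 y) a = true then 1 else 0)
        + bcount (aStep up dn tp y) (evPopA up dn y) (aStep up dn tp y (q.1, q.2 y) a) w
      = (if evPop up dn y q a = true then 1 else 0)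
        + bcount (mStep up dn tp) (evPop up dn y) (mStep up dn tp q a) w
    rw [hstep, ih, hev]

end Vale.Agent.Helper29.P329
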