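import Vale.Agent.Helper10.PMDefs
import Vale.Agent.Helper10.PosMain
import Vale.Agent.Helper12.P329TwoWay

/-!
Two-way clocks (problem P329), task T16: counting the stay letters (letters which do not
move the clock) read at a given class.
-/

namespace Vale.Agent.Helper29.P329

open Vale.Agent.Helper10

section general

variable {I α : Type}

/-- an alive run for the larger set of marks is an alive run for the smaller one -/
theorem gOpt_mono_run (δ : I → α → I) (b1 b2 : I → α → Bool)
    (h : ∀ i a, b1 i a = true → b2 i a = true) :
    ∀ (w : List α) (i j : I), run (gOpt δ b2) (some i) w = some j →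
      run (gOpt δ b1) (some i) w = some j := by
  intro w
  induction w with
  | nil =>
    intro i j hj
    exact hj
  | cons a w ih =>
    intro i j hj
    rw [run_cons] at hj ⊢
    by_cases hb : b2 i a = true
    · have e : gOpt δ b2 (some i) a = none := by simp [gOpt, hb]
      rw [e, gOpt_none] at hj
      exact absurd hj (by simp)
    · have hb1 : ¬ b1 i a = true := fun e => hb (h i a e)
      have e2 : gOpt δ b2 (some i) a = some (δ i a) := by simp [gOpt, hb]
      have e1 : gOpt δ b1 (some i) a = some (δ i a) := by simp [gOpt, hb1]
      rw [e2] at hj
      rw [e1]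
      exact ih _ _ hj

/-- marking more transitions keeps the cut automaton counter-free -/
theorem gOpt_cf_mono (δ : I → α → I) (b1 b2 : I → α → Bool)
    (h : ∀ i a, b1 i a = true → b2 i a = true) (hcf : CounterFree (gOpt δ b1)) :
    CounterFree (gOpt δ b2) := by
  intro w q n hn hq
  cases q with
  | none => exact gOpt_none δ b2 w
  | some i =>
    have hsome : ∀ k, k ≤ n → ∃ j, (fun q => run (gOpt δ b2) q w)^[k] (some i) = some j := by
      intro k hk
      cases h1 : (fun q => run (gOpt δ b2) q w)^[k] (some i) with
      | some j => exact ⟨j, rfl⟩
      | none =>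
        exfalso
        have e : n = (n - k) + k := by omega
        rw [e, Function.iterate_add_apply, h1, gOpt_iter_none] at hq
        exact absurd hq (by simp)
    have hit : ∀ k, k ≤ n → ∀ j, (fun q => run (gOpt δ b2) q w)^[k] (some i) = some j →
        (fun q => run (gOpt δ b1) q w)^[k] (some i) = some j := by
      intro k
      induction k with
      | zero =>
        intro _ j hj
        exact hj
      | succ k ih =>
        intro hk j hj
        obtain ⟨j', hj'⟩ := hsome k (by omega)
        rw [Function.iterate_succ_apply', hj'] at hj
        rw [Function.iterate_succ_apply', ih (by omega) j' hj']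
        exact gOpt_mono_run δ b1 b2 h w _ _ hj
    have h1 := hit n le_rfl i hq
    have h2 := hcf w (some i) n hn h1
    obtain ⟨j, hj⟩ := hsome 1 (by omega)
    simp only [Function.iterate_one] at hj
    have h3 := gOpt_mono_run δ b1 b2 h w i j hj
    rw [h2] at h3
    rw [hj, ← h3]

/-- the number of marked transitions of a cut-counter-free automaton whose marked transitions
lead to one state is a measurable statistic -/
theorem bcount_meas [Finite I] [Finite α] (δ : I → α → I) (bad : I → α → Bool) (i0 : I)
    (hcf : CounterFree (gOpt δ bad)) (h0 : ∀ i a, bad i a = true → δ i a = i0) (i : I) :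
    Meas (fun w : List α => ((bcount δ bad i w : ℕ) : ℤ)) := by
  intro e _ r
  have h1 := gstat_gsh δ bad i0 e hcf h0 i (fun p => p.1 = r)
  refine h1.congr (fun w => ?_)
  rw [Int.cast_natCast]

end general

section stay

variable {α : Type} {m : ℕ}

/-- the marks: the arrivals at `x` and the stay letters with `sp` read at `x` -/
def stayBad (up dn : α → Bool) (sp : α → Prop) [DecidablePred sp] (x : ZMod m) :
    ZMod m → α → Bool :=
  fun c a => clsArr up dn x c a || (!up a && !dn a && decide (sp a) && decide (c = x))

theorem clsArr_target (up dn : α → Bool) (x c : ZMod m) (a : α)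
    (h : clsArr up dn x c a = true) : clsStep up dn c a = x := by
  unfold clsArr at h
  unfold clsStep dgPM
  by_cases hu : up a = true
  · simp only [hu, Bool.true_and, Bool.not_true, Bool.false_and, Bool.or_false,
      decide_eq_true_eq] at h
    rw [if_pos hu]
    exact h
  · have hu' : up a = false := by simpa using hu
    simp only [hu', Bool.false_and, Bool.not_false, Bool.true_and, Bool.false_or,
      Bool.and_eq_true, decide_eq_true_eq] at h
    rw [if_neg hu, if_pos h.1, ← sub_eq_add_neg]
    exact h.2

theorem stayBad_target (up dn : α → Bool) (sp : α → Prop) [DecidablePred sp] (x c : ZMod m)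
    (a : α) (h : stayBad up dn sp x c a = true) : clsStep up dn c a = x := by
  unfold stayBad at h
  rw [Bool.or_eq_true] at h
  rcases h with h | h
  · exact clsArr_target up dn x c a h
  · simp only [Bool.and_eq_true, Bool.not_eq_true', decide_eq_true_eq] at h
    obtain ⟨⟨⟨hu, hd⟩, _⟩, hc⟩ := h
    unfold clsStep dgPM
    simp [hu, hd, hc]

/-- the marked transitions split into the arrivals and the stay letters read at `x` -/
theorem bcount_stay (up dn : α → Bool) (sp : α → Prop) [DecidablePred sp] (x : ZMod m) :
    ∀ (w : List α) (c : ZMod m),
      bcount (clsStep up dn) (stayBad up dn sp x) c w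
        = bcount (clsStep up dn) (clsArr up dn x) c w
          + cnt (dgPM m up dn) (fun a => (up a = false ∧ dn a = false) ∧ sp a) x c w := by
  intro w
  induction w with
  | nil => intro c; rfl
  | cons a w ih =>
    intro c
    have hstep : (if stayBad up dn sp x c a = true then 1 else 0)
        = (if clsArr up dn x c a = true then 1 else 0)
          + (if ((up a = false ∧ dn a = false) ∧ sp a) ∧ c = x then 1 else 0) := by
      unfold stayBad clsArr
      by_cases hu : up a = true
      · simp [hu]
      · have hu' : up a = false := by simpa using hu
        by_cases hd : dn a = true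
        · simp [hu', hd]
        · have hd' : dn a = false := by simpa using hd
          simp [hu', hd']
    show (if stayBad up dn sp x c a = true then 1 else 0)
        + bcount (clsStep up dn) (stayBad up dn sp x) (clsStep up dn c a) w
      = ((if clsArr up dn x c a = true then 1 else 0)
          + bcount (clsStep up dn) (clsArr up dn x) (clsStep up dn c a) w)
        + ((if ((up a = false ∧ dn a = false) ∧ sp a) ∧ c = x then 1 else 0)
          + cnt (dgPM m up dn) (fun a => (up a = false ∧ dn a = false) ∧ sp a) x
              (c + dgPM m up dn a) w)
    rw [hstep, ih (clsStep up dn c a)]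
    show _ = _ + (_ + cnt (dgPM m up dn) (fun a => (up a = false ∧ dn a = false) ∧ sp a) x
      (clsStep up dn c a) w)
    ring

/-- **T16.** The number of stay letters with `sp` read at the class `x` is measurable. -/
theorem stay_meas [Finite α] [NeZero m] (up dn : α → Bool) (sp : α → Prop) [DecidablePred sp]
    (x : ZMod m) :
    Meas (fun w : List α =>
      ((cnt (dgPM m up dn) (fun a => (up a = false ∧ dn a = false) ∧ sp a) x 0 w : ℕ) : ℤ)) := by
  have hcf1 : CounterFree (gOpt (clsStep (m := m) up dn) (clsArr up dn x)) :=
    Vale.Agent.Helper12.P329TwoWay.clsCut_cf up dn x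
  have hcf2 : CounterFree (gOpt (clsStep (m := m) up dn) (stayBad up dn sp x)) := by
    refine gOpt_cf_mono _ (clsArr up dn x) _ ?_ hcf1
    intro c a h
    unfold stayBad
    rw [h, Bool.true_or]
  have h1 := bcount_meas (clsStep (m := m) up dn) (clsArr up dn x) x hcf1
    (fun c a h => clsArr_target up dn x c a h) 0
  have h2 := bcount_meas (clsStep (m := m) up dn) (stayBad up dn sp x) x hcf2
    (fun c a h => stayBad_target up dn sp x c a h) 0
  refine (h2.sub h1).congr (fun w => ?_)
  rw [bcount_stay up dn sp x w 0]
  push_cast
  ring

end stay

end Vale.Agent.Helper29.P329
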